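import Vale.Agent.P076.R2.H831V.Spec2

/-!
# P076 : anisotropic Sobolev spaces from the weighted theorem (row Z1)
-/

open MeasureTheory Complex FourierTransform Filter Topology Set
open scoped ENNReal NNReal

namespace Vale.Agent.P076.R2.H916

open Vale.Agent.P076 Vale.Agent.P076.H791 Vale.Agent.P076.R2 Vale.Agent.P076.R2.H45
open Vale.Agent.P076.R2.H831 Vale.Agent.P076.R2.H831V

variable {n : ℕ}

/-- the radial profile -/
noncomputable def qq (ε ρ : ℝ) : ℝ := if ρ < 1 then 1 else (ρ / 4) ^ (-(1 + ε))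

lemma measurable_qq (ε : ℝ) : Measurable (qq ε) := by
  unfold qq
  refine Measurable.ite measurableSet_Iio measurable_const ?_
  fun_prop

lemma qq_nonneg {ε ρ : ℝ} (hρ : 0 ≤ ρ) : 0 ≤ qq ε ρ := by
  unfold qq
  split_ifs
  · exact zero_le_one
  · positivity

/-- the bounds for the tubes -/
noncomputable def th (ε : ℝ) (k j : ℕ) : ℝ :=
  min ((2 : ℝ) ^ (-(((k : ℝ) - 1) * (1 / 2 + ε)))) ((2 : ℝ) ^ (-(((j : ℝ) - 1) * (1 + ε))))

lemma th_nonneg (ε : ℝ) (k j : ℕ) : 0 ≤ th ε k j := by unfold th; positivity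

/-- the tubes -/
noncomputable def TT (ε : ℝ) (e : Fin n → ℝ) (k : ℕ) : Finset ((Fin n → ℝ) × ℝ × ℝ) :=
  (Finset.range k).image fun j => (e, (2 : ℝ) ^ j, th ε k j)

lemma th_mul {ε : ℝ} (hε : 0 < ε) (k j : ℕ) :
    th ε k j * max ((2 : ℝ) ^ j) ((2 : ℝ) ^ ((k : ℝ) / 2)) ≤
      2 ^ (1 + ε) * ((2 : ℝ) ^ (-(ε / 2))) ^ k := by
  have e0 : ((2 : ℝ) ^ (-(ε / 2))) ^ k = (2 : ℝ) ^ (-(ε / 2) * k) := by
    rw [← Real.rpow_natCast, ← Real.rpow_mul (by norm_num)]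
  rw [e0, ← Real.rpow_add (by norm_num)]
  have e1 : (2 : ℝ) ^ j = (2 : ℝ) ^ (j : ℝ) := (Real.rpow_natCast 2 j).symm
  have hk : (0 : ℝ) ≤ k := k.cast_nonneg
  rw [e1]
  rcases le_total (j : ℝ) ((k : ℝ) / 2) with h | h
  · have h1 : max ((2 : ℝ) ^ (j : ℝ)) ((2 : ℝ) ^ ((k : ℝ) / 2)) = (2 : ℝ) ^ ((k : ℝ) / 2) :=
      max_eq_right (Real.rpow_le_rpow_of_exponent_le (by norm_num) h)
    rw [h1]
    calc th ε k j * (2 : ℝ) ^ ((k : ℝ) / 2) ≤
        (2 : ℝ) ^ (-(((k : ℝ) - 1) * (1 / 2 + ε))) * (2 : ℝ) ^ ((k : ℝ) / 2) :=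
          mul_le_mul_of_nonneg_right (min_le_left _ _) (by positivity)
      _ = (2 : ℝ) ^ (-(((k : ℝ) - 1) * (1 / 2 + ε)) + (k : ℝ) / 2) :=
          (Real.rpow_add (by norm_num) _ _).symm
      _ ≤ _ := by
          apply Real.rpow_le_rpow_of_exponent_le (by norm_num)
          nlinarith
  · have h1 : max ((2 : ℝ) ^ (j : ℝ)) ((2 : ℝ) ^ ((k : ℝ) / 2)) = (2 : ℝ) ^ (j : ℝ) :=
      max_eq_left (Real.rpow_le_rpow_of_exponent_le (by norm_num) h)
    rw [h1]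
    calc th ε k j * (2 : ℝ) ^ (j : ℝ) ≤
        (2 : ℝ) ^ (-(((j : ℝ) - 1) * (1 + ε))) * (2 : ℝ) ^ (j : ℝ) :=
          mul_le_mul_of_nonneg_right (min_le_right _ _) (by positivity)
      _ = (2 : ℝ) ^ (-(((j : ℝ) - 1) * (1 + ε)) + (j : ℝ)) :=
          (Real.rpow_add (by norm_num) _ _).symm
      _ ≤ _ := by
          apply Real.rpow_le_rpow_of_exponent_le (by norm_num)
          nlinarith

lemma pyth {e : Fin n → ℝ} (he : nrm e = 1) (ξ : Fin n → ℝ) :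
    nrm ξ ^ 2 = (∑ i, ξ i * e i) ^ 2 + nrm (ξ - (∑ i, ξ i * e i) • e) ^ 2 := by
  have he' : ∑ i, e i ^ 2 = 1 := by
    have h1 : nrm e ^ 2 = ∑ i, e i ^ 2 := Real.sq_sqrt (Finset.sum_nonneg fun i _ => sq_nonneg _)
    rw [← h1, he]
    norm_num
  have h1 : nrm ξ ^ 2 = ∑ i, ξ i ^ 2 := Real.sq_sqrt (Finset.sum_nonneg fun i _ => sq_nonneg _)
  set c := ∑ i, ξ i * e i with hc
  have h2 : nrm (ξ - c • e) ^ 2 = ∑ i, (ξ i - c * e i) ^ 2 :=
    Real.sq_sqrt (Finset.sum_nonneg fun i _ => sq_nonneg _)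
  rw [h1, h2]
  have h3 : ∀ i, (ξ i - c * e i) ^ 2 = ξ i ^ 2 - 2 * c * (ξ i * e i) + c ^ 2 * e i ^ 2 := by
    intro i; ring
  simp only [h3, Finset.sum_add_distrib, Finset.sum_sub_distrib, ← Finset.mul_sum, ← hc, he']
  ring

lemma summ {ε : ℝ} (hε : 0 < ε) (e : Fin n → ℝ) : Summable fun k : ℕ => √((k : ℝ) + 1) *
    ∑ p ∈ TT ε e k, p.2.2 * max p.2.1 ((2 : ℝ) ^ ((k : ℝ) / 2)) := by
  set r : ℝ := (2 : ℝ) ^ (-(ε / 2)) with hr
  have hr0 : 0 ≤ r := by positivity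
  have hr1 : r < 1 := Real.rpow_lt_one_of_one_lt_of_neg (by norm_num) (by linarith)
  have hr' : ‖r‖ < 1 := by rwa [Real.norm_eq_abs, abs_of_nonneg hr0]
  have s1 : Summable fun k : ℕ => 2 ^ (1 + ε) * (2 * ((k : ℝ) ^ 2 * r ^ k) + 2 * r ^ k) :=
    (((summable_pow_mul_geometric_of_norm_lt_one 2 hr').mul_left 2).add
      ((summable_geometric_of_lt_one hr0 hr1).mul_left 2)).mul_left _
  refine Summable.of_nonneg_of_le (fun k => ?_) (fun k => ?_) s1
  · refine mul_nonneg (Real.sqrt_nonneg _) (Finset.sum_nonneg fun p hp => ?_)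
    unfold TT at hp
    rw [Finset.mem_image] at hp
    obtain ⟨j, _, rfl⟩ := hp
    exact mul_nonneg (th_nonneg _ _ _) (by positivity)
  · have hinj : Set.InjOn (fun j : ℕ => ((e, (2 : ℝ) ^ j, th ε k j) : (Fin n → ℝ) × ℝ × ℝ))
        (Finset.range k) := by
      intro j _ j' _ hjj
      have h1 : (2 : ℝ) ^ j = (2 : ℝ) ^ j' := by
        have := congrArg (fun p : (Fin n → ℝ) × ℝ × ℝ => p.2.1) hjj
        exact this
      exact pow_right_injective₀ (by norm_num) (by norm_num) h1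
    unfold TT
    rw [Finset.sum_image hinj]
    have h2 : ∑ j ∈ Finset.range k, th ε k j * max ((2 : ℝ) ^ j) ((2 : ℝ) ^ ((k : ℝ) / 2)) ≤
        k * (2 ^ (1 + ε) * r ^ k) := by
      calc ∑ j ∈ Finset.range k, th ε k j * max ((2 : ℝ) ^ j) ((2 : ℝ) ^ ((k : ℝ) / 2)) ≤
          ∑ j ∈ Finset.range k, (2 ^ (1 + ε) * r ^ k) :=
            Finset.sum_le_sum fun j _ => th_mul hε k j
        _ = k * (2 ^ (1 + ε) * r ^ k) := by
            rw [Finset.sum_const, Finset.card_range, nsmul_eq_mul]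
    have hk : (0 : ℝ) ≤ k := k.cast_nonneg
    have h3 : √((k : ℝ) + 1) ≤ k + 1 := by
      rw [Real.sqrt_le_left (by linarith)]
      nlinarith
    have h4 : 0 ≤ (2 : ℝ) ^ (1 + ε) * r ^ k := by positivity
    calc √((k : ℝ) + 1) * ∑ j ∈ Finset.range k,
          th ε k j * max ((2 : ℝ) ^ j) ((2 : ℝ) ^ ((k : ℝ) / 2))
        ≤ (k + 1) * (k * (2 ^ (1 + ε) * r ^ k)) := by
          refine mul_le_mul h3 h2 (Finset.sum_nonneg fun j _ => ?_) (by linarith)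
          exact mul_nonneg (th_nonneg _ _ _) (by positivity)
      _ ≤ 2 ^ (1 + ε) * (2 * ((k : ℝ) ^ 2 * r ^ k) + 2 * r ^ k) := by
          have : ((k : ℝ) + 1) * k ≤ 2 * k ^ 2 + 2 := by nlinarith [sq_nonneg ((k : ℝ) - 1)]
          nlinarith

lemma point {ε : ℝ} (hε : 0 < ε) {e : Fin n → ℝ} (he : nrm e = 1) (ξ : Fin n → ℝ) :
    (ENNReal.ofReal (1 + |∑ i, ξ i * e i| ^ (1 / 2 + ε) +
      nrm (ξ - (∑ i, ξ i * e i) • e) ^ (1 + ε)))⁻¹ ≤ ENNReal.ofReal (qq ε (nrm ξ)) +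
      ∑' k, ∑ p ∈ TT ε e k, (tube k p).indicator (fun _ => ENNReal.ofReal p.2.2) ξ := by
  have hp := pyth he ξ
  have hd0 : 0 ≤ nrm (ξ - (∑ i, ξ i * e i) • e) := Real.sqrt_nonneg _
  have hρ0 : 0 ≤ nrm ξ := Real.sqrt_nonneg _
  set c : ℝ := ∑ i, ξ i * e i with hc
  set d : ℝ := nrm (ξ - c • e) with hd
  set ρ : ℝ := nrm ξ with hρ
  have hA : 0 ≤ |c| ^ (1 / 2 + ε) := by positivity
  have hB : 0 ≤ d ^ (1 + ε) := by positivity
  set R : ℝ := 1 + |c| ^ (1 / 2 + ε) + d ^ (1 + ε) with hR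
  have hR1 : 1 ≤ R := by linarith
  have hR0 : 0 < R := by linarith
  rw [← ENNReal.ofReal_inv_of_pos hR0]
  have hRinv : R⁻¹ ≤ 1 := inv_le_one_of_one_le₀ hR1
  by_cases h1 : ρ < 1
  · refine le_trans (ENNReal.ofReal_le_ofReal ?_) le_self_add
    unfold qq
    rw [if_pos h1]
    exact hRinv
  have h1' : 1 ≤ ρ := not_lt.1 h1
  have hq : qq ε ρ = (ρ / 4) ^ (-(1 + ε)) := by unfold qq; rw [if_neg h1]
  by_cases h2 : ρ / 4 ≤ d
  · refine le_trans (ENNReal.ofReal_le_ofReal ?_) le_self_add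
    rw [hq, Real.rpow_neg (by positivity)]
    apply inv_anti₀ (by positivity)
    have : (ρ / 4) ^ (1 + ε) ≤ d ^ (1 + ε) := Real.rpow_le_rpow (by positivity) h2 (by linarith)
    linarith
  by_cases h3 : ρ ≤ 4
  · refine le_trans (ENNReal.ofReal_le_ofReal ?_) le_self_add
    rw [hq, Real.rpow_neg (by positivity)]
    refine hRinv.trans ?_
    apply (one_le_inv₀ (by positivity)).2
    exact Real.rpow_le_one (by positivity) (by linarith) (by linarith)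
  rw [not_le] at h2 h3
  obtain ⟨k, hk1, hk2⟩ := exists_nat_pow_near h1' (show (1 : ℝ) < 2 by norm_num)
  have hk : 2 ≤ k := by
    by_contra hcon
    have h4 : (2 : ℝ) ^ (k + 1) ≤ 2 ^ 2 := pow_le_pow_right₀ (by norm_num) (by omega)
    linarith
  obtain ⟨l, rfl⟩ : ∃ l, k = l + 1 := ⟨k - 1, by omega⟩
  have hdl : d < 2 ^ l := by
    have : (2 : ℝ) ^ (l + 1 + 1) = 4 * 2 ^ l := by ring
    linarith
  have hcl : (2 : ℝ) ^ l ≤ |c| := by
    have h5 : ρ ^ 2 / 4 ≤ c ^ 2 := by nlinarith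
    have h6 : ρ / 2 ≤ |c| := by
      apply le_of_sq_le_sq _ (abs_nonneg c)
      rw [sq_abs]
      linarith
    have h7 : (2 : ℝ) ^ (l + 1) = 2 * 2 ^ l := by ring
    linarith
  have hex : ∃ j : ℕ, d ≤ 2 ^ j := ⟨l, hdl.le⟩
  classical
  set j := Nat.find hex with hj
  have hj1 : d ≤ 2 ^ j := Nat.find_spec hex
  have hj2 : j ≤ l := Nat.find_min' hex hdl.le
  have hth : R⁻¹ ≤ th ε (l + 1) j := by
    unfold th
    apply le_min
    · rw [Real.rpow_neg (by norm_num)]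
      apply inv_anti₀ (by positivity)
      have e1 : (2 : ℝ) ^ ((((l + 1 : ℕ) : ℝ) - 1) * (1 / 2 + ε)) =
          ((2 : ℝ) ^ l) ^ (1 / 2 + ε) := by
        rw [← Real.rpow_natCast, ← Real.rpow_mul (by norm_num)]
        congr 1
        push_cast
        ring
      rw [e1]
      have : ((2 : ℝ) ^ l) ^ (1 / 2 + ε) ≤ |c| ^ (1 / 2 + ε) :=
        Real.rpow_le_rpow (by positivity) hcl (by linarith)
      linarith
    · rcases Nat.eq_zero_or_pos j with h0 | h0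
      · rw [h0]
        refine hRinv.trans ?_
        apply Real.one_le_rpow (by norm_num)
        push_cast
        linarith
      · obtain ⟨i, hi⟩ : ∃ i, j = i + 1 := ⟨j - 1, by omega⟩
        have h8 : ¬ d ≤ 2 ^ i := Nat.find_min hex (by omega)
        rw [not_le] at h8
        rw [Real.rpow_neg (by norm_num)]
        apply inv_anti₀ (by positivity)
        have e1 : (2 : ℝ) ^ (((j : ℝ) - 1) * (1 + ε)) = ((2 : ℝ) ^ i) ^ (1 + ε) := by
          rw [← Real.rpow_natCast, ← Real.rpow_mul (by norm_num), hi]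
          congr 1
          push_cast
          ring
        rw [e1]
        have : ((2 : ℝ) ^ i) ^ (1 + ε) ≤ d ^ (1 + ε) :=
          Real.rpow_le_rpow (by positivity) h8.le (by linarith)
        linarith
  have hmem : ((e, (2 : ℝ) ^ j, th ε (l + 1) j) : (Fin n → ℝ) × ℝ × ℝ) ∈ TT ε e (l + 1) := by
    unfold TT
    exact Finset.mem_image.2 ⟨j, Finset.mem_range.2 (by omega), rfl⟩
  have htube : ξ ∈ tube (l + 1) ((e, (2 : ℝ) ^ j, th ε (l + 1) j) : (Fin n → ℝ) × ℝ × ℝ) :=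
    ⟨hk1, hk2, hj1⟩
  calc ENNReal.ofReal R⁻¹ ≤ ENNReal.ofReal (th ε (l + 1) j) := ENNReal.ofReal_le_ofReal hth
    _ = (tube (l + 1) ((e, (2 : ℝ) ^ j, th ε (l + 1) j) : (Fin n → ℝ) × ℝ × ℝ)).indicator
        (fun _ => ENNReal.ofReal (th ε (l + 1) j)) ξ := by
          rw [Set.indicator_of_mem htube]
    _ ≤ ∑ p ∈ TT ε e (l + 1), (tube (l + 1) p).indicator (fun _ => ENNReal.ofReal p.2.2) ξ :=
        Finset.single_le_sum (f := fun p : (Fin n → ℝ) × ℝ × ℝ =>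
          (tube (l + 1) p).indicator (fun _ => ENNReal.ofReal p.2.2) ξ)
          (fun _ _ => zero_le) hmem
    _ ≤ ∑' k, ∑ p ∈ TT ε e k, (tube k p).indicator (fun _ => ENNReal.ofReal p.2.2) ξ :=
        ENNReal.le_tsum (l + 1)
    _ ≤ _ := le_add_self

lemma finite_theta {ε C : ℝ} (hε : 0 < ε) :
    ∫⁻ ρ in Set.Ioi (0 : ℝ), ENNReal.ofReal (qq ε ρ) * ENNReal.ofReal C < ⊤ := by
  rw [lintegral_mul_const' _ _ ENNReal.ofReal_ne_top]
  refine ENNReal.mul_lt_top ?_ ENNReal.ofReal_lt_top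
  rw [← Set.Ioc_union_Ioi_eq_Ioi (zero_le_one : (0 : ℝ) ≤ 1)]
  refine lt_of_le_of_lt (lintegral_union_le _ _ _) (ENNReal.add_lt_top.2 ⟨?_, ?_⟩)
  · calc ∫⁻ ρ in Set.Ioc (0 : ℝ) 1, ENNReal.ofReal (qq ε ρ) ≤
        ∫⁻ _ in Set.Ioc (0 : ℝ) 1, ENNReal.ofReal (4 ^ (1 + ε)) := by
          refine setLIntegral_mono measurable_const fun ρ hρ => ENNReal.ofReal_le_ofReal ?_
          unfold qq
          have h4 : (1 : ℝ) ≤ 4 ^ (1 + ε) := Real.one_le_rpow (by norm_num) (by linarith)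
          split_ifs with h
          · exact h4
          · have : ρ = 1 := le_antisymm hρ.2 (not_lt.1 h)
            rw [this, Real.rpow_neg (by norm_num), one_div, Real.inv_rpow (by norm_num), inv_inv]
      _ < ⊤ := by
          rw [setLIntegral_const]
          exact ENNReal.mul_lt_top ENNReal.ofReal_lt_top (by simp)
  · have h1 : IntegrableOn (fun t : ℝ => (4 : ℝ) ^ (1 + ε) * t ^ (-(1 + ε))) (Set.Ioi 1) :=
      (integrableOn_Ioi_rpow_of_lt (by linarith) one_pos).const_mul _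
    refine lt_of_le_of_lt ?_ h1.lintegral_lt_top
    refine setLIntegral_mono (by fun_prop) fun ρ hρ => ENNReal.ofReal_le_ofReal ?_
    rw [Set.mem_Ioi] at hρ
    unfold qq
    rw [if_neg (by linarith), Real.div_rpow (by linarith) (by norm_num),
      Real.rpow_neg (by norm_num : (0 : ℝ) ≤ 4), div_inv_eq_mul, mul_comm]

theorem stAni (hn : 1 ≤ n) (h : StWt n) : StAni n := by
  intro e ε he hε
  have hnrm : Measurable (nrm : (Fin n → ℝ) → ℝ) := by
    unfold nrm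
    fun_prop
  refine h _ (fun ξ => ENNReal.ofReal (qq ε (nrm ξ)))
    (fun ρ => ENNReal.ofReal (qq ε ρ) * ENNReal.ofReal (cC n)) 1 (TT ε e)
    (fun _ p _ => ENNReal.ofReal p.2.2) ?_ ?_ ?_ ?_ (finite_theta hε) one_pos ?_ ?_
    (point hε he)
  · refine ENNReal.measurable_ofReal.comp ?_
    have c1 : Measurable fun ξ : Fin n → ℝ => ∑ i, ξ i * e i := by fun_prop
    have c2 : Measurable fun ξ : Fin n → ℝ => nrm (ξ - (∑ i, ξ i * e i) • e) :=
      hnrm.comp (measurable_id.sub (c1.smul_const e))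
    exact (measurable_const.add ((continuous_abs.measurable.comp c1).pow_const _)).add (c2.pow_const _)
  · intro ξ
    rw [← ENNReal.ofReal_one]
    apply ENNReal.ofReal_le_ofReal
    have hA : 0 ≤ |∑ i, ξ i * e i| ^ (1 / 2 + ε) := by positivity
    have hB : 0 ≤ nrm (ξ - (∑ i, ξ i * e i) • e) ^ (1 + ε) :=
      Real.rpow_nonneg (Real.sqrt_nonneg _) _
    linarith
  · exact ENNReal.measurable_ofReal.comp ((measurable_qq ε).comp hnrm)
  · exact (ENNReal.measurable_ofReal.comp (measurable_qq ε)).mul_const _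
  · intro ρ hρ ω
    have e1 : ∀ ω' : Metric.sphere (0 : EuclideanSpace ℝ (Fin n)) 1,
        ENNReal.ofReal (qq ε (nrm (ρ • ω'.1).ofLp)) = ENNReal.ofReal (qq ε ρ) := by
      intro ω'
      rw [show nrm (ρ • ω'.1).ofLp = ρ from nrm_sph hρ ω']
    simp_rw [e1]
    rw [setLIntegral_const]
    have e2 := cap_le hn hρ one_pos ω
    rw [one_pow, mul_one] at e2
    calc ENNReal.ofReal (ρ ^ (n - 1)) * (ENNReal.ofReal (qq ε ρ) * surf n (cap ρ 1 ω)) =
        ENNReal.ofReal (qq ε ρ) * (ENNReal.ofReal (ρ ^ (n - 1)) * surf n (cap ρ 1 ω)) := by ring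
      _ ≤ ENNReal.ofReal (qq ε ρ) * ENNReal.ofReal (cC n) := mul_le_mul_right e2 _
  · refine ⟨fun k p hp => ?_, summ hε e⟩
    unfold TT at hp
    rw [Finset.mem_image] at hp
    obtain ⟨j, hj, rfl⟩ := hp
    rw [Finset.mem_range] at hj
    refine ⟨he, ?_, th_nonneg _ _ _, measurable_const, Or.inl fun ξ => le_rfl⟩
    show (2 : ℝ) ^ j ≤ 2 ^ k / 2
    rw [le_div_iff₀ (by norm_num), ← pow_succ]
    exact pow_le_pow_right₀ (by norm_num) hj

end Vale.Agent.P076.R2.H916
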